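import Vale.Agent.P100.Main

theorem Vale.Agent.Results.P100.HenonLaneEmden.result (n : ℕ) (hn : 2 ≤ n) (p q A B : ℝ)
    (hp : 0 < p) (hq : 0 < q)
    (hsub : ((n : ℝ) + A) / (p + 1) + ((n : ℝ) + B) / (q + 1) > (n : ℝ) - 2) :
    ¬ ∃ u v : EuclideanSpace ℝ (Fin n) → ℝ,
      Continuous u ∧ Continuous v ∧
      ContDiffOn ℝ 2 u {x | x ≠ 0} ∧ ContDiffOn ℝ 2 v {x | x ≠ 0} ∧
      (∀ x, 0 < u x) ∧ (∀ x, 0 < v x) ∧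
      (∀ x, x ≠ 0 → -(Laplacian.laplacian u x) = ‖x‖ ^ A * v x ^ p) ∧
      (∀ x, x ≠ 0 → -(Laplacian.laplacian v x) = ‖x‖ ^ B * u x ^ q) := by
  rintro ⟨u, v, hu, hv, hu2, hv2, pu, pv, eu, ev⟩
  exact Vale.Agent.P100.liouville n hn p q A B hp hq hsub u v hu hv hu2 hv2 pu pv eu ev
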